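import Mathlib
import Vale.Agent.Lib.P028.Variance

namespace Vale.Agent.Results.P028.BoundedDivisors

open MeasureTheory

/-- The weak inhomogeneous Duffin-Schaeffer conjecture holds, for every real shift `γ`, for every
(not necessarily monotone) `ψ ≥ 0` supported on integers with at most `D` divisors (`D` arbitrary
but fixed): if `∑ φ(q) ψ(q) / q` diverges, then for almost every real `x` there are infinitely many
positive integers `q` with `‖q x - γ‖ < ψ(q)`, where `‖t‖ = |t - round t|` is the distance from `t`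
to the nearest integer. -/
theorem result (γ : ℝ) (ψ : ℕ → ℝ) (hψ : ∀ q, 0 ≤ ψ q) (D : ℕ)
    (hD : ∀ q, ψ q ≠ 0 → q.divisors.card ≤ D)
    (hdiv : ¬ Summable (fun q : ℕ => (Nat.totient q : ℝ) / q * ψ q)) :
    ∀ᵐ x : ℝ, {q : ℕ | 0 < q ∧ |q * x - γ - round (q * x - γ)| < ψ q}.Infinite :=
  Vale.Agent.Lib.P028.bounded_divisors γ ψ hψ D hD
    (Vale.Agent.Lib.P028.not_summable_of_weighted ψ hψ hdiv)

end Vale.Agent.Results.P028.BoundedDivisors
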