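import Mathlib
import Vale.Agent.Lib.P028.Variance

namespace Vale.Agent.Results.P028.GcdSumCriterion

open MeasureTheory Finset

/-- A gcd-sum criterion valid for every real shift `γ`: let `ψ ≥ 0` (not necessarily monotone) be
such that for some constant `C` every `n` in the support of `ψ` satisfies
`∑_{m < n, ψ(m) ≠ 0} gcd(m, n) ≤ C n`. If `∑ ψ(q)` diverges, then for almost every real `x` there
are infinitely many positive integers `q` with `‖q x - γ‖ < ψ(q)`, where `‖t‖ = |t - round t|` is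
the distance from `t` to the nearest integer. -/
theorem result (γ : ℝ) (ψ : ℕ → ℝ) (hψ : ∀ q, 0 ≤ ψ q) (C : ℝ)
    (hC : ∀ n, ψ n ≠ 0 →
      ∑ m ∈ (range n).filter (fun m => ψ m ≠ 0), (Nat.gcd m n : ℝ) ≤ C * n)
    (hdiv : ¬ Summable ψ) :
    ∀ᵐ x : ℝ, {q : ℕ | 0 < q ∧ |q * x - γ - round (q * x - γ)| < ψ q}.Infinite :=
  Vale.Agent.Lib.P028.real_main γ ψ hψ C hC hdiv

end Vale.Agent.Results.P028.GcdSumCriterion
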